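import Vale.Agent.P367.Main

open MeasureTheory Filter Topology Vale.Agent.P367

theorem Vale.Agent.Results.P367.A_quant.result (p : ℕ) (γ β : Fin p → ℝ) :
    (∀ n : ℕ, 2 ≤ n → Integrable (fun J => energy n J γ β) (gauss n) ∧
      Integrable (best n) (gauss n) ∧
      (∫ J, energy n J γ β ∂gauss n) / n ≤ (∫ J, best n J ∂gauss n) / n -
        Real.exp (-(10 ^ 11 * (1 + (∑ k, |γ k|) ^ 2)))) ∧
    ∀ v P : ℝ, Tendsto (fun n : ℕ => (∫ J, energy n J γ β ∂gauss n) / n) atTop (𝓝 v) →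
      Tendsto (fun n : ℕ => (∫ J, best n J ∂gauss n) / n) atTop (𝓝 P) →
      v ≤ P - Real.exp (-(10 ^ 11 * (1 + (∑ k, |γ k|) ^ 2))) := by
  have key : ∀ n : ℕ, 2 ≤ n → (∫ J, energy n J γ β ∂gauss n) / n ≤
      (∫ J, best n J ∂gauss n) / n - Real.exp (-(10 ^ 11 * (1 + (∑ k, |γ k|) ^ 2))) :=
    fun n hn => by
      have n0 : (0 : ℝ) < n := by exact_mod_cast (by omega : 0 < n)
      have := div_le_div_of_nonneg_right (gapq γ β hn le_rfl) n0.le
      rwa [sub_div, mul_div_cancel_right₀ _ n0.ne'] at this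
  exact ⟨fun n hn => ⟨energy_int γ β, best_int n, key n hn⟩, fun v P hv hP =>
    le_of_tendsto_of_tendsto hv (hP.sub_const _) ((eventually_ge_atTop 2).mono key)⟩
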