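import Vale.Agent.P367.Main

open MeasureTheory Filter Topology Vale.Agent.P367

theorem Vale.Agent.Results.P367.B_gap.result (Γ : ℝ) :
    ∃ δ : ℝ, 0 < δ ∧ ∀ (p : ℕ) (γ β : Fin p → ℝ), ∑ k, |γ k| ≤ Γ →
      (∀ n : ℕ, 2 ≤ n → Integrable (fun J => energy n J γ β) (gauss n) ∧
        Integrable (best n) (gauss n) ∧
        (∫ J, energy n J γ β ∂gauss n) / n ≤ (∫ J, best n J ∂gauss n) / n - δ) ∧
      ∀ v P : ℝ, Tendsto (fun n : ℕ => (∫ J, energy n J γ β ∂gauss n) / n) atTop (𝓝 v) →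
        Tendsto (fun n : ℕ => (∫ J, best n J ∂gauss n) / n) atTop (𝓝 P) → v ≤ P - δ := by
  obtain ⟨δ, h0, h⟩ := gap Γ
  refine ⟨δ, h0, fun p γ β hΓ => ?_⟩
  have key : ∀ n : ℕ, 2 ≤ n →
      (∫ J, energy n J γ β ∂gauss n) / n ≤ (∫ J, best n J ∂gauss n) / n - δ := fun n hn => by
    have n0 : (0 : ℝ) < n := by exact_mod_cast (by omega : 0 < n)
    have := div_le_div_of_nonneg_right (h n p γ β hn hΓ) n0.le
    rwa [sub_div, mul_div_cancel_right₀ _ n0.ne'] at this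
  exact ⟨fun n hn => ⟨energy_int γ β, best_int n, key n hn⟩, fun v P hv hP =>
    le_of_tendsto_of_tendsto hv (hP.sub_const δ) ((eventually_ge_atTop 2).mono key)⟩
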